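import Mathlib
import Vale.Agent.Lib.P140.RenormDefs
import Vale.Agent.Lib.P140.HomFinal2

/-!
# P140: global uniqueness of renormalized solutions for spatially homogeneous data

For every datum `F0(x,v) = f0(v)` that does not depend on `x` and has finite mass and energy, any
two renormalized solutions (which are allowed to depend on `x`) of the periodic hard-sphere
Boltzmann equation with datum `F0` coincide almost everywhere for every time `t ≥ 0`.
-/

namespace Vale.Agent.Results.P140.Homogeneous

open MeasureTheory Vale.Agent.Lib.P140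
open scoped ENNReal

theorem result (f0 : V → ℝ≥0∞) (F G : ℝ → Torus × V → ℝ≥0∞) (hf0 : Measurable f0)
    (hE : ∫⁻ v, ENNReal.ofReal (1 + ‖v‖ ^ 2) * f0 v < ∞)
    (hF : IsRenormalizedSolution (fun z => f0 z.2) F)
    (hG : IsRenormalizedSolution (fun z => f0 z.2) G) :
    ∀ t : ℝ, 0 ≤ t → F t =ᵐ[volume] G t :=
  hom_unique2 hf0 hE hF hG

end Vale.Agent.Results.P140.Homogeneous
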