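import Mathlib
import Vale.Agent.Lib.P140.RenormDefs
import Vale.Agent.Lib.P140.Final2
import Vale.Agent.Lib.P140.Final3
import Vale.Agent.Lib.P140.MaxwRenorm
import Vale.Agent.Lib.P140.HomFinal2

/-!
# P140: uniqueness of renormalized solutions of the periodic hard-sphere Boltzmann equation

1. Weak-strong uniqueness: a renormalized solution `g` with
   `∫ (1+|v|^2) g dv ≤ K` and `∫ (1+|v|)^3 g dv ≤ k(t)` on `(0,T] × T^3`, `∫_0^T t k(t) dt < ∞`,
   is the only renormalized solution with its datum on `[0,T]`.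
2. Every global Maxwellian is a renormalized solution and the only one with its datum.
3. For every datum bounded by a multiple of a Maxwellian all renormalized solutions coincide on a
   time interval depending only on the bound.
4. For every spatially homogeneous datum with finite mass and energy all renormalized solutions
   coincide for all times.
-/

namespace Vale.Agent.Results.P140.Main

open MeasureTheory Vale.Agent.Lib.P140
open scoped ENNReal

theorem weakStrong (F0 : Torus × V → ℝ≥0∞) (F g : ℝ → Torus × V → ℝ≥0∞) (T : ℝ) (hT : 0 < T)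
    (hD : IsDatum F0) (hg : IsRenormalizedSolution F0 g)
    (hK : ∃ (K : ℝ≥0∞) (k : ℝ → ℝ≥0∞), K < ∞ ∧ Measurable k ∧
      ∫⁻ t in Set.Ioc 0 T, ENNReal.ofReal t * k t < ∞ ∧
      ∀ᵐ t : ℝ, t ∈ Set.Ioc (0 : ℝ) T →
        ∀ᵐ x : Torus, secondMoment (g t) x ≤ K ∧ thirdMoment (g t) x ≤ k t)
    (hF : IsRenormalizedSolution F0 F) : ∀ t ∈ Set.Icc (0 : ℝ) T, F t =ᵐ[volume] g t := by
  obtain ⟨K, k, hKfin, hk, hkfin, hKT⟩ := hK
  refine eq_on_of_moments hD hF hg hT hKfin hk hkfin ?_ ?_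
  · filter_upwards [hKT] with t ht hmem
    filter_upwards [ht hmem] with x hx
    exact hx.1
  · filter_upwards [hKT] with t ht hmem
    filter_upwards [ht hmem] with x hx
    exact hx.2

theorem maxwellian (ρ θ : ℝ) (u : V) (hρ : 0 ≤ ρ) (hθ : 0 < θ) :
    IsRenormalizedSolution (maxw ρ θ u) (fun _ => maxw ρ θ u) ∧
    ∀ F : ℝ → Torus × V → ℝ≥0∞, IsRenormalizedSolution (maxw ρ θ u) F →
      ∀ t : ℝ, 0 ≤ t → F t =ᵐ[volume] maxw ρ θ u := by
  have hsol := maxw_isRenormalizedSolution ρ θ u hρ hθ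
  refine ⟨hsol, ?_⟩
  intro F hF t ht
  have hm : Measurable (maxw ρ θ u) := by
    unfold maxw
    fun_prop
  obtain ⟨K, hKfin, hK⟩ := maxw_thirdMoment ρ θ u hρ hθ
  have hmu : Measurable (Function.uncurry fun _ : ℝ => maxw ρ θ u) := hm.comp measurable_snd
  have hint : mInt (maxw ρ θ u) ≤ K :=
    int_wm_le (g := fun _ => maxw ρ θ u) hmu 0 (Filter.Eventually.of_forall hK)
  rw [mInt_eq hm] at hint
  have hD : IsDatum (maxw ρ θ u) :=
    ⟨hm, lt_of_le_of_lt (le_trans le_self_add hint) hKfin,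
      lt_of_le_of_lt (le_trans le_add_self hint) hKfin⟩
  exact eq_on_of_mild hD hF hsol (T := t + 1) (by linarith) ((hsol.isMildAE hD).on (t + 1)) hKfin
    (Filter.Eventually.of_forall fun _ _ => Filter.Eventually.of_forall hK) t ⟨ht, by linarith⟩

theorem result :
    -- (1) weak-strong uniqueness under a moment condition on one solution
    (∀ (F0 : Torus × V → ℝ≥0∞) (F g : ℝ → Torus × V → ℝ≥0∞) (T : ℝ), 0 < T → IsDatum F0 →
      IsRenormalizedSolution F0 g →
      (∃ (K : ℝ≥0∞) (k : ℝ → ℝ≥0∞), K < ∞ ∧ Measurable k ∧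
        ∫⁻ t in Set.Ioc 0 T, ENNReal.ofReal t * k t < ∞ ∧
        ∀ᵐ t : ℝ, t ∈ Set.Ioc (0 : ℝ) T →
          ∀ᵐ x : Torus, secondMoment (g t) x ≤ K ∧ thirdMoment (g t) x ≤ k t) →
      IsRenormalizedSolution F0 F → ∀ t ∈ Set.Icc (0 : ℝ) T, F t =ᵐ[volume] g t) ∧
    -- (2) existence and uniqueness for all global Maxwellian data
    (∀ (ρ θ : ℝ) (u : V), 0 ≤ ρ → 0 < θ →
      IsRenormalizedSolution (maxw ρ θ u) (fun _ => maxw ρ θ u) ∧
      ∀ F : ℝ → Torus × V → ℝ≥0∞, IsRenormalizedSolution (maxw ρ θ u) F →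
        ∀ t : ℝ, 0 ≤ t → F t =ᵐ[volume] maxw ρ θ u) ∧
    -- (3) short-time uniqueness for all data bounded by a multiple of a Maxwellian
    (∀ (ρ θ : ℝ) (u : V), 0 ≤ ρ → 0 < θ → ∃ T : ℝ, 0 < T ∧
      ∀ (F0 : Torus × V → ℝ≥0∞) (F G : ℝ → Torus × V → ℝ≥0∞), Measurable F0 →
        (∀ᵐ z, F0 z ≤ maxw ρ θ u z) → IsRenormalizedSolution F0 F →
        IsRenormalizedSolution F0 G → ∀ t ∈ Set.Icc (0 : ℝ) T, F t =ᵐ[volume] G t) ∧
    -- (4) global uniqueness for all spatially homogeneous data with finite mass and energy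
    (∀ (f0 : V → ℝ≥0∞) (F G : ℝ → Torus × V → ℝ≥0∞), Measurable f0 →
      ∫⁻ v, ENNReal.ofReal (1 + ‖v‖ ^ 2) * f0 v < ∞ →
      IsRenormalizedSolution (fun z => f0 z.2) F → IsRenormalizedSolution (fun z => f0 z.2) G →
      ∀ t : ℝ, 0 ≤ t → F t =ᵐ[volume] G t) :=
  ⟨fun F0 F g T hT hD hg hK hF => weakStrong F0 F g T hT hD hg hK hF, maxwellian,
    shortTime_unique, fun _ _ _ hf0 hE hF hG => hom_unique2 hf0 hE hF hG⟩

end Vale.Agent.Results.P140.Main
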