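import Mathlib
import Vale.Agent.Lib.P140.RenormDefs
import Vale.Agent.Lib.P140.RenormMild
import Vale.Agent.Lib.P140.RenormMass
import Vale.Agent.Lib.P140.WeakContLocal
import Vale.Agent.Lib.P140.Conserve
import Vale.Agent.Lib.P140.Maxwellian

/-!
# P140: weak-strong uniqueness in the class of renormalized solutions of the problem

If one renormalized solution `g` has a locally bounded third-moment density
`ess sup_{t,x} ∫ (1+|v|)^3 g dv`, then it is the only renormalized solution with its datum.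
Every global Maxwellian is the only renormalized solution issued from itself.
-/

namespace Vale.Agent.Results.P140.Renormalized

open MeasureTheory Vale.Agent.Lib.P140
open scoped ENNReal

/-- `ess sup_{(0,T] × T^3} ∫ (1+|v|)^3 g(t,x,v) dv < ∞`. -/
def BoundedThirdMomentOn (g : ℝ → Torus × V → ℝ≥0∞) (T : ℝ) : Prop :=
  ∃ K : ℝ≥0∞, K < ∞ ∧
    ∀ᵐ t : ℝ, t ∈ Set.Ioc (0 : ℝ) T → ∀ᵐ x : Torus, thirdMoment (g t) x ≤ K

/-- Weak-strong uniqueness among renormalized solutions, on any time interval `[0,T]`. -/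
def WeakStrongUniqueness : Prop :=
  ∀ (F0 : Torus × V → ℝ≥0∞) (F g : ℝ → Torus × V → ℝ≥0∞) (T : ℝ), 0 < T → IsDatum F0 →
    IsRenormalizedSolution F0 g → BoundedThirdMomentOn g T → IsRenormalizedSolution F0 F →
    ∀ t ∈ Set.Icc (0 : ℝ) T, F t =ᵐ[volume] g t

/-- Uniqueness for all global Maxwellian data. -/
def MaxwellianUniqueness : Prop :=
  ∀ (ρ θ : ℝ) (u : V), 0 ≤ ρ → 0 < θ → ∀ F : ℝ → Torus × V → ℝ≥0∞,
    IsRenormalizedSolution (maxw ρ θ u) F → ∀ t : ℝ, 0 ≤ t → F t =ᵐ[volume] maxw ρ θ u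

section

variable {F0 : Torus × V → ℝ≥0∞} {F g : ℝ → Torus × V → ℝ≥0∞}

lemma mass_bound (hF : IsRenormalizedSolution F0 F) (T : ℝ) :
    ∃ C : ℝ≥0∞, C < ∞ ∧ ∀ t ∈ Set.Icc (0 : ℝ) T, mass (F t) ≤ C := by
  obtain ⟨C, hC, h⟩ := hF.bound T
  exact ⟨C, hC, fun t ht => le_trans le_self_add (h t ht)⟩

lemma mass_fin (hF : IsRenormalizedSolution F0 F) (t : ℝ) (ht : 0 ≤ t) : mass (F t) < ∞ := by
  obtain ⟨C, hC, h⟩ := mass_bound hF t
  exact lt_of_le_of_lt (h t ⟨ht, le_rfl⟩) hC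

lemma lintegral_mass_fin (hF : IsRenormalizedSolution F0 F) (T : ℝ) :
    ∫⁻ t in Set.Ioc 0 T, mass (F t) < ∞ := by
  obtain ⟨C, hC, h⟩ := mass_bound hF T
  have h1 : ∫⁻ t in Set.Ioc 0 T, mass (F t) ≤ ∫⁻ _t in Set.Ioc 0 T, C := by
    apply lintegral_mono_ae
    rw [ae_restrict_iff' measurableSet_Ioc]
    exact Filter.Eventually.of_forall fun t ht => h t ⟨ht.1.le, ht.2⟩
  refine lt_of_le_of_lt h1 ?_
  rw [lintegral_const, Measure.restrict_apply MeasurableSet.univ, Set.univ_inter, Real.volume_Ioc]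
  exact ENNReal.mul_lt_top hC ENNReal.ofReal_lt_top

/-- Renormalized solutions are mild solutions. -/
lemma isMildAE (hD : IsDatum F0) (hF : IsRenormalizedSolution F0 F) : IsMildAE F0 F :=
  isMildAE_of_log hD.meas hD.mass_fin hF.meas (lintegral_mass_fin hF) hF.gain_int hF.loss_int
    (weakTransport_log (hF.renorm _ isRenormalizer_log))

lemma mInt_datum_fin (hD : IsDatum F0) : mInt F0 < ∞ := by
  rw [mInt_eq hD.meas]
  exact ENNReal.add_lt_top.2 ⟨hD.mass_fin, hD.energy_fin⟩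

/-- Uniqueness at almost every time, the strong solution being only assumed mild. -/
lemma ae_time (hD : IsDatum F0) (hF : IsRenormalizedSolution F0 F) (hg : IsMildAE F0 g) {T : ℝ}
    (hK : BoundedThirdMomentOn g T) : ∀ᵐ t : ℝ, t ∈ Set.Ioc 0 T → F t =ᵐ[volume] g t := by
  obtain ⟨K, hKfin, hKT⟩ := hK
  have hFm := isMildAE hD hF
  have hF0 : ∀ᵐ z, F0 z < ∞ := ae_lt_top hD.meas hD.mass_fin.ne
  have hmass := mass_conserved hD.meas hD.mass_fin hF.meas (mass_bound hF) hF.massBalance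
  have hsub : ∀ t : ℝ, t ≤ T →
      ∀ᵐ s : ℝ, s ∈ Set.Ioc 0 t → ∀ᵐ x : Torus, thirdMoment (g s) x ≤ K := by
    intro t ht
    filter_upwards [hKT] with s hs hmem
    exact hs ⟨hmem.1, hmem.2.trans ht⟩
  have hcons : ∀ᵐ t : ℝ, t ∈ Set.Ioc 0 T → mInt (g t) = mInt F0 := by
    filter_upwards [hg.eqn] with t ht hmem
    exact mInt_conserved hD.meas hg.meas (ht hmem.1) hKfin (hsub t hmem.2)
  have hle : ∀ᵐ t : ℝ, t ∈ Set.Ioc 0 T → mInt (F t) ≤ mInt (g t) := by
    filter_upwards [hmass, hcons] with t h1 h2 hmem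
    rw [h2 hmem, mInt_eq (measurable_slice hF.meas t), mInt_eq hD.meas, h1 hmem.1]
    gcongr
    exact hF.energy_le t hmem.1.le
  filter_upwards [hFm.eqn, hg.eqn, hle, hcons] with t e1 e2 e3 e4 hmem
  have hle' : ∀ᵐ s : ℝ, s ∈ Set.Ioc 0 t → mInt (F s) ≤ mInt (g s) := by
    filter_upwards [hle] with s hs hs'
    exact hs ⟨hs'.1, hs'.2.trans hmem.2⟩
  refine weakStrong_core hD.meas hF0 (hFm.on t) (hg.on t) hmem.1.le hKfin (hsub t hmem.2) hle'
    (e1 hmem.1) (e2 hmem.1) (e3 hmem) ?_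
  rw [e4 hmem]
  exact mInt_datum_fin hD

end

theorem weakStrong : WeakStrongUniqueness := by
  intro F0 F g T hT hD hg hK hF
  exact ae_eq_of_weaklyContinuous_Icc hT (measurable_slice hF.meas) (measurable_slice hg.meas)
    (mass_fin hF) (mass_fin hg) hF.cont hg.cont (ae_time hD hF (isMildAE hD hg) hK)

theorem maxwellian : MaxwellianUniqueness := by
  intro ρ θ u hρ hθ F hF t ht
  have hm : Measurable (maxw ρ θ u) := by
    unfold maxw
    fun_prop
  obtain ⟨K, hKfin, hK⟩ := maxw_thirdMoment ρ θ u hρ hθ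
  have hmu : Measurable (Function.uncurry fun _ : ℝ => maxw ρ θ u) := hm.comp measurable_snd
  have hint : mInt (maxw ρ θ u) ≤ K :=
    int_wm_le (g := fun _ => maxw ρ θ u) hmu 0 (Filter.Eventually.of_forall hK)
  rw [mInt_eq hm] at hint
  have hD : IsDatum (maxw ρ θ u) :=
    ⟨hm, lt_of_le_of_lt (le_trans le_self_add hint) hKfin,
      lt_of_le_of_lt (le_trans le_add_self hint) hKfin⟩
  have hKg : BoundedThirdMomentOn (fun _ => maxw ρ θ u) (t + 1) :=
    ⟨K, hKfin, Filter.Eventually.of_forall fun _ _ => Filter.Eventually.of_forall hK⟩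
  exact ae_eq_of_weaklyContinuous_Icc (g := fun _ => maxw ρ θ u) (by linarith : 0 < t + 1)
    (measurable_slice hF.meas) (fun _ => hm) (mass_fin hF) (fun _ _ => hD.mass_fin) hF.cont
    (fun _ _ _ => continuousOn_const)
    (ae_time hD hF (maxw_isMildSolution ρ θ u hρ hθ).isMildAE hKg) t ⟨ht, by linarith⟩

theorem result : WeakStrongUniqueness ∧ MaxwellianUniqueness := ⟨weakStrong, maxwellian⟩

end Vale.Agent.Results.P140.Renormalized
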