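import Mathlib
import Vale.Agent.Lib.P140.Defs
import Vale.Agent.Lib.P140.Conserve
import Vale.Agent.Lib.P140.Maxwellian

/-!
# P140: weak-strong uniqueness for the periodic hard-sphere Boltzmann equation

If one mild (DiPerna-Lions) solution `g` has a locally bounded third-moment density
`ess sup_x ∫ (1+|v|)^3 g dv`, then every mild solution `F` with the same datum whose mass and
energy do not exceed those of the datum coincides with `g`.  In particular every global Maxwellian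
(any density, bulk velocity and temperature) is the only such solution issued from itself.
-/

namespace Vale.Agent.Results.P140.WeakStrong

open MeasureTheory Vale.Agent.Lib.P140
open scoped ENNReal

/-- `ess sup_x ∫ (1+|v|)^3 g(t,x,v) dv` is bounded on bounded time intervals. -/
def HasBoundedThirdMoment (g : ℝ → Torus × V → ℝ≥0∞) : Prop :=
  ∀ T : ℝ, ∃ K : ℝ≥0∞, K < ∞ ∧ ∀ t ∈ Set.Icc (0 : ℝ) T, ∀ᵐ x : Torus, thirdMoment (g t) x ≤ K

/-- Mass and energy of `F(t)` do not exceed those of the datum. -/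
def MassEnergyBounded (F0 : Torus × V → ℝ≥0∞) (F : ℝ → Torus × V → ℝ≥0∞) : Prop :=
  ∀ t : ℝ, 0 ≤ t → mass (F t) ≤ mass F0 ∧ energy (F t) ≤ energy F0

/-- Weak-strong uniqueness. -/
def WeakStrongUniqueness : Prop :=
  ∀ (F0 : Torus × V → ℝ≥0∞) (F g : ℝ → Torus × V → ℝ≥0∞), Measurable F0 →
    IsMildSolution F0 g → HasBoundedThirdMoment g →
    IsMildSolution F0 F → MassEnergyBounded F0 F →
    ∀ t : ℝ, 0 ≤ t → F t =ᵐ[volume] g t

/-- Uniqueness for all global Maxwellian data. -/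
def MaxwellianUniqueness : Prop :=
  ∀ (ρ θ : ℝ) (u : V), 0 ≤ ρ → 0 < θ → ∀ F : ℝ → Torus × V → ℝ≥0∞,
    IsMildSolution (maxw ρ θ u) F → MassEnergyBounded (maxw ρ θ u) F →
    ∀ t : ℝ, 0 ≤ t → F t =ᵐ[volume] maxw ρ θ u

theorem weakStrong : WeakStrongUniqueness := by
  intro F0 F g hF0m hg hK hF hME t ht
  have hK' : ∀ T : ℝ, ∃ K : ℝ≥0∞, K < ∞ ∧
      ∀ᵐ s : ℝ, s ∈ Set.Ioc 0 T → ∀ᵐ x : Torus, thirdMoment (g s) x ≤ K := by
    intro T
    obtain ⟨K, hKfin, hKT⟩ := hK T
    exact ⟨K, hKfin, Filter.Eventually.of_forall fun s hs => hKT s ⟨hs.1.le, hs.2⟩⟩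
  -- conservation for `g`
  have hcons : ∀ s : ℝ, 0 ≤ s → mInt (g s) = mInt F0 := by
    intro s hs
    obtain ⟨K, hKfin, hKs⟩ := hK' s
    exact mInt_conserved hF0m hg.meas (hg.eqn s hs) hKfin hKs
  have hfin : ∀ s : ℝ, 0 ≤ s → mInt (g s) < ∞ := by
    intro s hs
    obtain ⟨K, hKfin, hKs⟩ := hK s
    exact lt_of_le_of_lt (int_wm_le hg.meas s (hKs s ⟨hs, le_rfl⟩)) hKfin
  have hF0fin : mInt F0 < ∞ := by
    rw [← hcons 0 le_rfl]
    exact hfin 0 le_rfl
  have hF0 : ∀ᵐ z, F0 z < ∞ := by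
    have := ae_lt_top (measurable_wm_snd.mul hF0m) hF0fin.ne
    filter_upwards [this] with z hz
    by_contra hcon
    have htop : F0 z = ∞ := not_lt_top_iff.1 hcon
    simp only [Pi.mul_apply, htop, ENNReal.mul_top (wm_ne_zero z.2)] at hz
    exact absurd hz (lt_irrefl _)
  have hle : ∀ s : ℝ, 0 ≤ s → mInt (F s) ≤ mInt (g s) := by
    intro s hs
    rw [hcons s hs, mInt_eq (measurable_slice hF.meas s), mInt_eq hF0m]
    exact add_le_add (hME s hs).1 (hME s hs).2
  obtain ⟨K, hKfin, hKt⟩ := hK' t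
  exact weakStrong_core hF0m hF0 (hF.isMildAE.on t) (hg.isMildAE.on t) ht hKfin hKt
    (Filter.Eventually.of_forall fun s hs => hle s hs.1.le) (hF.eqn t ht) (hg.eqn t ht)
    (hle t ht) (hfin t ht)

theorem maxwellian : MaxwellianUniqueness := by
  intro ρ θ u hρ hθ F hF hME t ht
  have hm : Measurable (maxw ρ θ u) := by
    unfold maxw
    fun_prop
  refine weakStrong (maxw ρ θ u) F (fun _ => maxw ρ θ u) hm (maxw_isMildSolution ρ θ u hρ hθ) ?_
    hF hME t ht
  intro T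
  obtain ⟨K, hKfin, hK⟩ := maxw_thirdMoment ρ θ u hρ hθ
  exact ⟨K, hKfin, fun _ _ => Filter.Eventually.of_forall hK⟩

theorem result : WeakStrongUniqueness ∧ MaxwellianUniqueness := ⟨weakStrong, maxwellian⟩

end Vale.Agent.Results.P140.WeakStrong
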